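import Mathlib

/-! Positive cones and the algebra of the two-vertex states. -/

namespace Vale.Agent.P066

open Finset

/-- the quantum integer -/
def qn {K : Type} [CommRing K] (q : K) (k : ℕ) : K := ∑ i ∈ range k, q ^ i

section qn

variable {K : Type} [CommRing K] (q : K)

@[simp] lemma qn_zero : qn q 0 = 0 := by simp [qn]
lemma qn_succ (k : ℕ) : qn q (k + 1) = qn q k + q ^ k := by simp [qn, sum_range_succ]
lemma qn_succ' (k : ℕ) : qn q (k + 1) = 1 + q * qn q k := by
  simp only [qn, sum_range_succ', mul_sum, pow_succ, pow_zero]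
  rw [add_comm]
  exact congrArg _ (sum_congr rfl fun i _ => by ring)
lemma qn_one : qn q 1 = 1 := by simp [qn]
lemma qn_add (a b : ℕ) : qn q (a + b) = qn q a + q ^ a * qn q b := by
  induction b with
  | zero => simp
  | succ b ih => rw [← add_assoc, qn_succ, qn_succ, ih]; ring
lemma qn_mul (k : ℕ) : (q - 1) * qn q k = q ^ k - 1 := by
  induction k with
  | zero => simp
  | succ k ih => rw [qn_succ, mul_add, ih]; ring

end qn

/-- the graded cone generated by `gen` under sums and products with `q` and the `e k` -/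
inductive Cone {K V : Type} [CommRing K] [AddCommGroup V] [Module K V] (q : K) (e : ℕ → K)
    (gen : ℕ → V → Prop) : ℕ → V → Prop
  | gen {n : ℕ} {F : V} : gen n F → Cone q e gen n F
  | zero (n : ℕ) : Cone q e gen n 0
  | add {n : ℕ} {F G : V} : Cone q e gen n F → Cone q e gen n G → Cone q e gen n (F + G)
  | q {n : ℕ} {F : V} : Cone q e gen n F → Cone q e gen n (q • F)
  | e (k : ℕ) {n : ℕ} {F : V} : Cone q e gen n F → Cone q e gen (k + n) (e k • F)

variable {K V V' : Type} [CommRing K] [AddCommGroup V] [Module K V] [AddCommGroup V'] [Module K V']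
  {q : K} {e : ℕ → K} {gen : ℕ → V → Prop} {gen' : ℕ → V' → Prop}

lemma Cone.cast {n m : ℕ} {F G : V} (h : Cone q e gen n F) (hn : n = m) (hF : F = G) :
    Cone q e gen m G := hn ▸ hF ▸ h

lemma Cone.pow {n : ℕ} {F : V} (h : Cone q e gen n F) (k : ℕ) : Cone q e gen n (q ^ k • F) := by
  induction k with
  | zero => simpa using h
  | succ k ih => exact ih.q.cast rfl (by rw [smul_smul, pow_succ'])

lemma Cone.qn {n : ℕ} {F : V} (h : Cone q e gen n F) (k : ℕ) : Cone q e gen n (qn q k • F) := by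
  induction k with
  | zero => simpa using Cone.zero n
  | succ k ih => exact (ih.add (h.pow k)).cast rfl (by rw [qn_succ, add_smul])

lemma Cone.map (L : V →ₗ[K] V') (s : ℕ) (hL : ∀ n F, gen n F → Cone q e gen' (n + s) (L F))
    {n : ℕ} {F : V} (h : Cone q e gen n F) : Cone q e gen' (n + s) (L F) := by
  induction h with
  | gen h => exact hL _ _ h
  | zero n => simpa using Cone.zero _
  | add _ _ h1 h2 => simpa using h1.add h2
  | q _ h1 => simpa using h1.q
  | e k _ h1 => exact (h1.e k).cast (by ring) (by simp)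

/-- the positive family of two-vertex states -/
def J (q : K) (Q W : ℕ → ℕ → V) : ℕ → ℕ → ℕ → V
  | 0, _, _ => 0
  | 1, g, l => Q (1 + g) l
  | A + 2, g, l => qn q (A + 2) • Q (A + 2 + g) l + (q * qn q (A + 1)) • W (A + 2 + g) (l + 1) +
      q • J q Q W A (g + 1) (l + 1)

lemma J_T {Q W : ℕ → ℕ → V} (T : V →ₗ[K] V)
    (TQ : ∀ k l, T (Q k l) = ((qn q k - 1 - q) * e k) • Q (l + 1) 0 -
      ((qn q l - 1 - q) * e l) • Q (k + 1) 0 + q • W (k + 1) (l + 1))
    (TW : ∀ k l, T (W k l) = ((qn q l - 1) * e l) • Q k 0 - ((qn q k - 1) * e k) • Q l 0 + Q k l)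
    (hP : ∀ m, Cone q e gen (m + 2) (Q (m + 1) 0)) (A : ℕ) : ∀ g l,
    Cone q e gen (A + (g + 1) + l + 2) (T (J q Q W A (g + 1) l) +
      qn q (A + 1) • Q (A + 1 + (g + 1)) l +
      (qn q A * ((qn q l - 1 - q) * e l)) • Q (A + (g + 1) + 1) 0 - J q Q W (A + 1) (g + 1) l) := by
  induction A using Nat.twoStepInduction with
  | zero =>
    intro g l
    refine (Cone.zero _).cast rfl ?_
    simp [J, qn_one]
  | one =>
    intro g l
    refine ((((hP l).e (1 + (g + 1))).qn g).pow 2).cast (by ring) ?_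
    have h1 : qn q (1 + (g + 1)) = 1 + q + q ^ 2 * qn q g := by
      rw [show 1 + (g + 1) = 2 + g by ring, qn_add, qn_succ, qn_one, pow_one]
    simp only [J, TQ, h1, qn_one, zero_add, show 2 + (g + 1) = 1 + (g + 1) + 1 by ring,
      show 1 + 1 + (g + 1) = 1 + (g + 1) + 1 by ring]
    module
  | more A ih _ =>
    intro g l
    have h1 := ((((hP l).e (A + 2 + (g + 1))).qn g).pow (A + 3)).cast
      (m := A + 2 + (g + 1) + l + 2) (by ring) rfl
    have h2 := ((hP (A + 2 + g)).e (l + 1)).cast (m := A + 2 + (g + 1) + l + 2) (by ring) rfl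
    have h3 := (ih (g + 1) (l + 1)).q.cast (m := A + 2 + (g + 1) + l + 2) (by ring) rfl
    refine ((h1.add (((h2.qn l).pow (A + 2)).add ((h2.qn A).pow 2))).add h3).cast rfl ?_
    have e1 : qn q (A + 2 + (g + 1)) = qn q (A + 3) + q ^ (A + 3) * qn q g := by
      rw [show A + 2 + (g + 1) = A + 3 + g by ring, qn_add]
    have e2 : qn q (A + 3) = 1 + q * qn q (A + 2) := qn_succ' q _
    have e3 : qn q (A + 2) = 1 + q * qn q (A + 1) := qn_succ' q _
    have e4 : qn q (A + 1) = qn q A + q ^ A := qn_succ q _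
    have e5 : qn q (l + 1) = 1 + q * qn q l := qn_succ' q _
    have j1 : J q Q W (A + 2 + 1) (g + 1) l = qn q (A + 3) • Q (A + 2 + (g + 1) + 1) l +
        (q * qn q (A + 2)) • W (A + 2 + (g + 1) + 1) (l + 1) +
        q • J q Q W (A + 1) (g + 1 + 1) (l + 1) := by
      rw [show A + 2 + (g + 1) + 1 = A + 1 + 2 + (g + 1) by ring]; rfl
    rw [j1]
    simp only [J, map_add, map_smul, TQ, TW,
      show A + 1 + (g + 1 + 1) = A + 2 + (g + 1) by ring,
      show A + (g + 1 + 1) + 1 = A + 2 + (g + 1) by ring,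
      show A + 2 + g + 1 = A + 2 + (g + 1) by ring,
      show A + 2 + 1 + (g + 1) = A + 2 + (g + 1) + 1 by ring,
      show A + 2 + 1 = A + 3 by ring]
    rw [e1, e2, e3, e4, e5]
    module

lemma J_D {Q W : ℕ → ℕ → V} {E : ℕ → V'} (D : V →ₗ[K] V')
    (DQ : ∀ k l, D (Q k l) = ((qn q k - 1) * e k) • E (l + 1) - ((qn q l - 1) * e l) • E (k + 1))
    (DW : ∀ k l, D (W k l) = (qn q l * e l) • E k - (qn q k * e k) • E l)
    (hE : ∀ m, Cone q e gen' (m + 1) (E (m + 1))) (A : ℕ) : ∀ g l,
    Cone q e gen' (A + g + l + 1) (D (J q Q W A g l) +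
      (qn q A * ((qn q l - 1) * e l)) • E (A + g + 1)) := by
  induction A using Nat.twoStepInduction with
  | zero =>
    intro g l
    refine (Cone.zero _).cast rfl ?_
    simp [J]
  | one =>
    intro g l
    refine ((((hE l).e (1 + g)).qn g).q).cast (by ring) ?_
    have h1 : qn q (1 + g) = 1 + q * qn q g := by rw [add_comm, qn_succ']
    simp only [J, DQ, h1, qn_one]
    module
  | more A ih _ =>
    intro g l
    have h1 := ((((hE l).e (A + 2 + g)).qn g).pow (A + 2)).cast
      (m := A + 2 + g + l + 1) (by ring) rfl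
    have h2 := ((hE (A + 1 + g)).e (l + 1)).cast (m := A + 2 + g + l + 1) (by ring) rfl
    have h3 := (ih (g + 1) (l + 1)).q.cast (m := A + 2 + g + l + 1) (by ring) rfl
    refine ((h1.add (((h2.qn (l + 1)).pow (A + 1)).add ((h2.qn A).q))).add h3).cast rfl ?_
    have e1 : qn q (A + 2 + g) = qn q (A + 2) + q ^ (A + 2) * qn q g := qn_add q _ _
    have e3 : qn q (A + 2) = 1 + q * qn q (A + 1) := qn_succ' q _
    have e4 : qn q (A + 1) = qn q A + q ^ A := qn_succ q _
    simp only [J, map_add, map_smul, DQ, DW,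
      show A + (g + 1) + 1 = A + 2 + g by ring,
      show A + 1 + g + 1 = A + 2 + g by ring]
    rw [e1, e3, e4]
    module

end Vale.Agent.P066
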