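import Mathlib

/-! The chromatic quasisymmetric function of a natural unit interval graph. -/

namespace Vale.Agent.P066

open Finset

/-- proper colourings with `N` colours of the graph with edges `a < b ≤ h a` -/
def colourings {n : ℕ} (h : Fin n → Fin n) (N : ℕ) : Finset (Fin n → Fin N) :=
  univ.filter fun f => ∀ a b, a < b → b ≤ h a → f a ≠ f b

/-- the number of edges `a < b ≤ h a` with `f a < f b` -/
def asc {n N : ℕ} (h : Fin n → Fin n) (f : Fin n → Fin N) : ℕ :=
  (univ.filter fun p : Fin n × Fin n => p.1 < p.2 ∧ p.2 ≤ h p.1 ∧ f p.1 < f p.2).card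

/-- the chromatic quasisymmetric function in the variables `x_1, ..., x_N` -/
noncomputable def chi {n : ℕ} (h : Fin n → Fin n) (N : ℕ) : MvPolynomial (Fin N) (Polynomial ℤ) :=
  ∑ f ∈ colourings h N, MvPolynomial.C (Polynomial.X ^ asc h f) * ∏ a, MvPolynomial.X (f a)

end Vale.Agent.P066
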