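import Vale.Agent.P066.Sums

/-! The states as families over the number of variables. -/

namespace Vale.Agent.P066

open Finset

/-- polynomials in `N` variables -/
abbrev Rg (N : ℕ) : Type := MvPolynomial (Fin N) (Polynomial ℤ)
/-- families without active vertex -/
abbrev M0 : Type := ∀ N, Rg N
/-- families with one active vertex -/
abbrev M1 : Type := ∀ N, Fin N → Rg N
/-- families with two active vertices -/
abbrev M2 : Type := ∀ N, Fin N → Fin N → Rg N

noncomputable section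

/-- the parameter -/
def q0 : M0 := fun _ => MvPolynomial.C Polynomial.X
/-- the elementary symmetric polynomials -/
def e0 (k : ℕ) : M0 := fun N => MvPolynomial.esymm (Fin N) (Polynomial ℤ) k
/-- one-vertex generators -/
def E1 (k : ℕ) : M1 := fun N => EE (q0 N) MvPolynomial.X k
/-- twisted two-vertex states -/
def Q2 (k l : ℕ) : M2 := fun N c d =>
  w (q0 N) d c * (E1 k N c * E1 (l + 1) N d - E1 l N c * E1 (k + 1) N d)
/-- antisymmetric two-vertex states -/
def W2 (k l : ℕ) : M2 := fun N c d => E1 l N c * E1 k N d - E1 k N c * E1 l N d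
/-- states with both vertices in one column -/
def A2 (k : ℕ) : M2 := fun N => AA (q0 N) MvPolynomial.X k

/-- add a vertex adjacent to both active vertices and forget the older one -/
def T2 : M2 →ₗ[M0] M2 where
  toFun F := fun N c d => MvPolynomial.X d * w (q0 N) d c * ∑ b, w (q0 N) d b * F N b c
  map_add' F G := by
    funext N c d
    simp only [Pi.add_apply, mul_add, sum_add_distrib]
  map_smul' a F := by
    funext N c d
    simp only [Pi.smul_apply', Pi.smul_apply, smul_eq_mul, RingHom.id_apply, mul_sum]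
    exact sum_congr rfl fun b _ => by ring

/-- forget the older vertex -/
def D2 : M2 →ₗ[M0] M1 where
  toFun F := fun N d => ∑ c, F N c d
  map_add' F G := by
    funext N d
    simp only [Pi.add_apply, sum_add_distrib]
  map_smul' a F := by
    funext N d
    simp only [Pi.smul_apply', Pi.smul_apply, smul_eq_mul, RingHom.id_apply, mul_sum]

/-- add a vertex adjacent to the active vertex -/
def U1 : M1 →ₗ[M0] M2 where
  toFun F := fun N c d => w (q0 N) d c * F N c * MvPolynomial.X d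
  map_add' F G := by
    funext N c d
    simp only [Pi.add_apply]
    ring
  map_smul' a F := by
    funext N c d
    simp only [Pi.smul_apply', Pi.smul_apply, smul_eq_mul, RingHom.id_apply]
    ring

/-- forget the active vertex -/
def D1 : M1 →ₗ[M0] M0 where
  toFun F := fun N => ∑ c, F N c
  map_add' F G := by
    funext N
    simp only [Pi.add_apply, sum_add_distrib]
  map_smul' a F := by
    funext N
    simp only [Pi.smul_apply', Pi.smul_apply, Pi.mul_apply, smul_eq_mul, RingHom.id_apply, mul_sum]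

/-- add an isolated vertex -/
def U0 : M0 →ₗ[M0] M1 where
  toFun F := fun N d => F N * MvPolynomial.X d
  map_add' F G := by
    funext N d
    simp only [Pi.add_apply]
    ring
  map_smul' a F := by
    funext N d
    simp only [Pi.smul_apply', Pi.smul_apply, Pi.mul_apply, smul_eq_mul, RingHom.id_apply]
    ring

lemma qn_apply (k N : ℕ) : qn q0 k N = qn (q0 N) k := by simp [qn]

lemma e0_apply (k N : ℕ) : e0 k N = ee MvPolynomial.X k := by
  simp [e0, ee, sg, MvPolynomial.esymm]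

lemma e0_zero : e0 0 = 1 := by
  funext N; simp [e0]

lemma Q2_zero (k N : ℕ) (c d : Fin N) :
    Q2 k 0 N c d = w (q0 N) d c * E1 k N c * MvPolynomial.X d := by
  simp only [Q2, E1, EE_zero, zero_add, EE_one]
  ring

lemma TQ (k l : ℕ) : T2 (Q2 k l) = ((qn q0 k - 1 - q0) * e0 k) • Q2 (l + 1) 0 -
    ((qn q0 l - 1 - q0) * e0 l) • Q2 (k + 1) 0 + q0 • W2 (k + 1) (l + 1) := by
  funext N c d
  simp only [T2, LinearMap.coe_mk, AddHom.coe_mk, Pi.add_apply, Pi.sub_apply, Pi.smul_apply',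
    Pi.smul_apply, Pi.mul_apply, Pi.one_apply, smul_eq_mul, Q2_zero, qn_apply, e0_apply]
  by_cases h : c = d
  · subst h; simp only [w_self, W2]; ring
  have h1 := sum_ww_EE (q0 N) MvPolynomial.X k h
  have h2 := sum_ww_EE (q0 N) MvPolynomial.X l h
  have h3 : ∑ b, w (q0 N) d b * Q2 k l N b c =
      (∑ b, w (q0 N) d b * w (q0 N) c b * EE (q0 N) MvPolynomial.X k b) * E1 (l + 1) N c -
      (∑ b, w (q0 N) d b * w (q0 N) c b * EE (q0 N) MvPolynomial.X l b) * E1 (k + 1) N c := by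
    rw [sum_mul, sum_mul, ← sum_sub_distrib]
    exact sum_congr rfl fun b _ => by simp only [Q2, E1]; ring
  rw [h3, h1, h2]
  have h4 := w_mul_w (q0 N) h
  simp only [W2, E1, EE_succ]
  linear_combination (MvPolynomial.X d * MvPolynomial.X c *
    (RR (q0 N) MvPolynomial.X k d * RR (q0 N) MvPolynomial.X l c -
      RR (q0 N) MvPolynomial.X l d * RR (q0 N) MvPolynomial.X k c)) * h4

lemma TW (k l : ℕ) : T2 (W2 k l) = ((qn q0 l - 1) * e0 l) • Q2 k 0 -
    ((qn q0 k - 1) * e0 k) • Q2 l 0 + Q2 k l := by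
  funext N c d
  simp only [T2, LinearMap.coe_mk, AddHom.coe_mk, Pi.add_apply, Pi.sub_apply, Pi.smul_apply',
    Pi.smul_apply, Pi.mul_apply, Pi.one_apply, smul_eq_mul, Q2_zero, qn_apply, e0_apply]
  have h3 : ∑ b, w (q0 N) d b * W2 k l N b c =
      (∑ b, w (q0 N) d b * EE (q0 N) MvPolynomial.X l b) * E1 k N c -
      (∑ b, w (q0 N) d b * EE (q0 N) MvPolynomial.X k b) * E1 l N c := by
    rw [sum_mul, sum_mul, ← sum_sub_distrib]
    exact sum_congr rfl fun b _ => by simp only [W2, E1]; ring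
  rw [h3, sum_w_EE, sum_w_EE]
  simp only [Q2, E1, EE_succ]
  ring

lemma DQ (k l : ℕ) : D2 (Q2 k l) =
    ((qn q0 k - 1) * e0 k) • E1 (l + 1) - ((qn q0 l - 1) * e0 l) • E1 (k + 1) := by
  funext N d
  simp only [D2, LinearMap.coe_mk, AddHom.coe_mk, Pi.add_apply, Pi.sub_apply, Pi.smul_apply',
    Pi.smul_apply, Pi.mul_apply, Pi.one_apply, smul_eq_mul, qn_apply, e0_apply]
  have h3 : ∑ b, Q2 k l N b d =
      (∑ b, w (q0 N) d b * EE (q0 N) MvPolynomial.X k b) * E1 (l + 1) N d -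
      (∑ b, w (q0 N) d b * EE (q0 N) MvPolynomial.X l b) * E1 (k + 1) N d := by
    rw [sum_mul, sum_mul, ← sum_sub_distrib]
    exact sum_congr rfl fun b _ => by simp only [Q2, E1]; ring
  rw [h3, sum_w_EE, sum_w_EE]
  simp only [E1, EE_succ]
  ring

lemma DW (k l : ℕ) : D2 (W2 k l) = (qn q0 l * e0 l) • E1 k - (qn q0 k * e0 k) • E1 l := by
  funext N d
  simp only [D2, LinearMap.coe_mk, AddHom.coe_mk, Pi.add_apply, Pi.sub_apply, Pi.smul_apply',
    Pi.smul_apply, Pi.mul_apply, Pi.one_apply, smul_eq_mul, qn_apply, e0_apply, W2]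
  rw [sum_sub_distrib, ← sum_mul, ← sum_mul]
  simp only [E1, sum_EE]

lemma TA (k : ℕ) : T2 (A2 k) = (qn q0 k - 1) • Q2 (k + 1) 0 + A2 (k + 1) := by
  funext N c d
  simp only [T2, LinearMap.coe_mk, AddHom.coe_mk, Pi.add_apply, Pi.sub_apply, Pi.smul_apply',
    Pi.smul_apply, Pi.one_apply, smul_eq_mul, Q2_zero, qn_apply, A2, E1]
  exact sum_w_AA _ _ _ _ _

lemma DA (k : ℕ) : D2 (A2 k) = qn q0 k • E1 (k + 1) := by
  funext N d
  simp only [D2, LinearMap.coe_mk, AddHom.coe_mk, Pi.smul_apply',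
    Pi.smul_apply, smul_eq_mul, qn_apply, A2, E1]
  exact sum_AA _ _ _ _

lemma QA : Q2 1 0 = A2 1 := by
  funext N c d
  rw [Q2_zero]
  exact (AA_one _ _ _ _).symm

lemma UE (k : ℕ) : U1 (E1 k) = Q2 k 0 := by
  funext N c d
  rw [Q2_zero]
  rfl

lemma DE (k : ℕ) : D1 (E1 k) = qn q0 k • e0 k • (1 : M0) := by
  funext N
  simp only [D1, LinearMap.coe_mk, AddHom.coe_mk, smul_eq_mul, Pi.mul_apply, mul_one, qn_apply,
    e0_apply, E1]
  exact sum_EE _ _ _

lemma U_one : U0 1 = E1 1 := by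
  funext N d
  simp [U0, E1, EE_one]

/-- generators without active vertex -/
def g0 (n : ℕ) (F : M0) : Prop := n = 0 ∧ F = 1
/-- generators with one active vertex -/
def g1 (n : ℕ) (F : M1) : Prop := ∃ m, n = m + 1 ∧ F = E1 (m + 1)
/-- generators with two active vertices -/
def g2 (n : ℕ) (F : M2) : Prop :=
  (∃ A g, n = A + g + 3 ∧ F = J q0 Q2 W2 (A + 1) (g + 1) 0) ∨ ∃ k, n = k + 2 ∧ F = A2 (k + 1)

lemma cone_E (m : ℕ) : Cone q0 e0 g1 (m + 1) (E1 (m + 1)) := Cone.gen ⟨m, rfl, rfl⟩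

lemma cone_P (m : ℕ) : Cone q0 e0 g2 (m + 2) (Q2 (m + 1) 0) := by
  cases m with
  | zero => exact Cone.gen (Or.inr ⟨0, rfl, QA⟩)
  | succ m => exact Cone.gen (Or.inl ⟨0, m, by ring, by rw [J, add_comm 1]⟩)

lemma cone_T {n : ℕ} {F : M2} (h : Cone q0 e0 g2 n F) : Cone q0 e0 g2 (n + 1) (T2 F) := by
  refine h.map T2 1 ?_
  rintro _ _ (⟨A, g, rfl, rfl⟩ | ⟨k, rfl, rfl⟩)
  · have h1 := (J_T T2 TQ TW cone_P (A + 1) g 0).cast (m := A + g + 3 + 1) (by ring) rfl
    have h2 : Cone q0 e0 g2 (A + g + 3 + 1) (J q0 Q2 W2 (A + 1 + 1) (g + 1) 0) :=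
      Cone.gen (Or.inl ⟨A + 1, g, by ring, rfl⟩)
    have h3 := ((cone_P (A + g + 2)).qn A).q.cast (m := A + g + 3 + 1) (by ring) rfl
    refine ((h1.add h2).add h3).cast rfl ?_
    have e1 : qn q0 (A + 1 + 1) = qn q0 (A + 1) + q0 ^ (A + 1) := qn_succ _ _
    have e2 : qn q0 (A + 1) = qn q0 A + q0 ^ A := qn_succ _ _
    have e3 : qn q0 (A + 1) = 1 + q0 * qn q0 A := qn_succ' _ _
    have e4 := qn_mul q0 A
    simp only [show A + 1 + 1 + (g + 1) = A + g + 2 + 1 by ring,
      show A + 1 + (g + 1) + 1 = A + g + 2 + 1 by ring, e0_zero, qn_zero]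
    have e5 : qn q0 (A + 1 + 1) + qn q0 (A + 1) * ((0 - 1 - q0) * 1) + q0 * qn q0 A = 0 := by
      rw [e1, e2]; linear_combination (-q0) * e4 + q0 * (e3.symm.trans e2) + q0 * e4 -
        q0 * (e3.symm.trans e2)
    have e6 : qn q0 (A + 1 + 1) = -(qn q0 (A + 1) * ((0 - 1 - q0) * 1)) - q0 * qn q0 A := by
      linear_combination e5
    rw [e6]
    module
  · have h2 : Cone q0 e0 g2 (k + 2 + 1) (A2 (k + 1 + 1)) := Cone.gen (Or.inr ⟨k + 1, rfl, rfl⟩)
    refine ((((cone_P (k + 1)).qn k).q).add h2).cast rfl ?_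
    rw [TA, qn_succ']
    module

lemma cone_D2 {n : ℕ} {F : M2} (h : Cone q0 e0 g2 n F) : Cone q0 e0 g1 n (D2 F) := by
  refine h.map D2 0 ?_
  rintro _ _ (⟨A, g, rfl, rfl⟩ | ⟨k, rfl, rfl⟩)
  · have h1 := (J_D D2 DQ DW cone_E (A + 1) (g + 1) 0).cast (m := A + g + 3) (by ring) rfl
    have h2 := ((cone_E (A + 1 + (g + 1))).qn (A + 1)).cast (m := A + g + 3) (by ring) rfl
    refine (h1.add h2).cast rfl ?_
    simp only [e0_zero, qn_zero]
    module
  · rw [DA]
    exact (cone_E (k + 1)).qn _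

lemma cone_U1 {n : ℕ} {F : M1} (h : Cone q0 e0 g1 n F) : Cone q0 e0 g2 (n + 1) (U1 F) := by
  refine h.map U1 1 ?_
  rintro _ _ ⟨m, rfl, rfl⟩
  rw [UE]
  exact cone_P m

lemma cone_D1 {n : ℕ} {F : M1} (h : Cone q0 e0 g1 n F) : Cone q0 e0 g0 n (D1 F) := by
  refine h.map D1 0 ?_
  rintro _ _ ⟨m, rfl, rfl⟩
  rw [DE]
  exact ((Cone.gen (gen := g0) ⟨rfl, rfl⟩).e (m + 1)).qn _

lemma cone_U0 {n : ℕ} {F : M0} (h : Cone q0 e0 g0 n F) : Cone q0 e0 g1 (n + 1) (U0 F) := by
  refine h.map U0 1 ?_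
  rintro _ _ ⟨rfl, rfl⟩
  rw [U_one]
  exact cone_E 0

end

end Vale.Agent.P066
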