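import Vale.Agent.P066.Part

/-! The transfer recursion. -/

namespace Vale.Agent.P066

open Finset

noncomputable section

/-- total weight -/
def Z0 (m : ℕ) (r : ℕ → ℕ) : M0 := fun _ => ∑ f, wt m r f
/-- total weight with the first colour fixed -/
def H1 (m : ℕ) (r : ℕ → ℕ) : M1 := fun N d => ∑ f : Fin m → Fin N, wt (m + 1) r (Fin.cons d f)
/-- total weight with the first two colours fixed -/
def G2 (m : ℕ) (r : ℕ → ℕ) : M2 := fun N c d =>
  ∑ f : Fin m → Fin N, wt (m + 2) r (Fin.cons d (Fin.cons c f))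

lemma Z0_zero (r : ℕ → ℕ) : Z0 0 r = 1 := by
  funext N; simp [Z0, wt]

lemma Z0_succ (m : ℕ) (r : ℕ → ℕ) : Z0 (m + 1) r = D1 (H1 m r) := by
  funext N; exact sum_cons m _

lemma H1_succ (m : ℕ) (r : ℕ → ℕ) : H1 (m + 1) r = D2 (G2 m r) := by
  funext N d; exact sum_cons m _

lemma H1_iso (m : ℕ) (r : ℕ → ℕ) (h : r 0 = 0 ∨ m = 0) :
    H1 m r = U0 (Z0 m fun i => r (i + 1)) := by
  funext N d
  simp only [H1, U0, Z0, LinearMap.coe_mk, AddHom.coe_mk, sum_mul, wt_cons]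
  refine sum_congr rfl fun f _ => ?_
  rw [prod_eq_one, mul_one, mul_comm]
  intro j _
  have := j.2
  rw [if_neg (by omega)]

lemma G2_one (m : ℕ) (r : ℕ → ℕ) (h1 : 1 ≤ r 0) (h : r 0 = 1 ∨ m = 0) :
    G2 m r = U1 (H1 m fun i => r (i + 1)) := by
  funext N c d
  simp only [G2, U1, H1, LinearMap.coe_mk, AddHom.coe_mk, sum_mul, mul_sum]
  refine sum_congr rfl fun f _ => ?_
  rw [wt_cons, Fin.prod_univ_succ, if_pos (by simpa using h1), prod_eq_one, Fin.cons_zero]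
  · ring
  intro j _
  have := j.2
  rw [if_neg (by simp only [Fin.val_succ]; omega)]

lemma G2_two (m : ℕ) (r : ℕ → ℕ) (h : r 0 = 2) :
    G2 (m + 1) r = T2 (G2 m fun i => r (i + 1)) := by
  funext N c d
  simp only [G2, T2, LinearMap.coe_mk, AddHom.coe_mk, mul_sum]
  rw [sum_cons]
  refine sum_congr rfl fun b _ => sum_congr rfl fun f _ => ?_
  rw [wt_cons, Fin.prod_univ_succ, Fin.prod_univ_succ, if_pos (by simp [h]), if_pos (by simp [h]),
    prod_eq_one]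
  · simp only [Fin.cons_zero, Fin.cons_succ]
    ring
  intro j _
  rw [if_neg (by simp only [Fin.val_succ]; omega)]

lemma inv (m : ℕ) : ∀ r : ℕ → ℕ, (∀ i, r i ≤ 2) → (∀ i, r i ≤ r (i + 1) + 1) →
    Cone q0 e0 g1 (m + 2) (H1 (m + 1) r) ∧ (1 ≤ r 0 → Cone q0 e0 g2 (m + 2) (G2 m r)) := by
  have base : ∀ r : ℕ → ℕ, Cone q0 e0 g1 1 (H1 0 r) := fun r => by
    rw [H1_iso 0 r (Or.inr rfl), Z0_zero, U_one]
    exact cone_E 0
  have step : ∀ m (r : ℕ → ℕ), Cone q0 e0 g1 (m + 1) (H1 m fun i => r (i + 1)) →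
      (1 ≤ r 0 → Cone q0 e0 g2 (m + 2) (G2 m r)) → Cone q0 e0 g1 (m + 2) (H1 (m + 1) r) := by
    intro m r h1 h2
    rcases Nat.eq_zero_or_pos (r 0) with h | h
    · rw [H1_iso _ r (Or.inl h), Z0_succ]
      exact cone_U0 (cone_D1 h1)
    · rw [H1_succ]
      exact cone_D2 (h2 h)
  induction m with
  | zero =>
    intro r _ _
    have h2 : 1 ≤ r 0 → Cone q0 e0 g2 (0 + 2) (G2 0 r) := fun h => by
      rw [G2_one 0 r h (Or.inr rfl)]
      exact cone_U1 (base _)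
    exact ⟨step 0 r (base _) h2, h2⟩
  | succ m ih =>
    intro r hr1 hr2
    obtain ⟨i1, i2⟩ := ih (fun i => r (i + 1)) (fun i => hr1 _) (fun i => hr2 _)
    have h2 : 1 ≤ r 0 → Cone q0 e0 g2 (m + 1 + 2) (G2 (m + 1) r) := fun h => by
      have a1 := hr1 0
      have a2 := hr2 0
      rcases Nat.lt_or_ge (r 0) 2 with h' | h'
      · rw [G2_one _ r h (Or.inl (by omega))]
        exact cone_U1 i1
      · rw [G2_two m r (by omega)]
        exact cone_T (i2 (by omega))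
    exact ⟨step _ r i1 h2, h2⟩

lemma cone_Z0 (n : ℕ) (r : ℕ → ℕ) (h1 : ∀ i, r i ≤ 2) (h2 : ∀ i, r i ≤ r (i + 1) + 1) :
    Cone q0 e0 g0 n (Z0 n r) := by
  obtain _ | _ | m := n
  · rw [Z0_zero]; exact Cone.gen ⟨rfl, rfl⟩
  · rw [Z0_succ, H1_iso 0 r (Or.inr rfl), Z0_zero, U_one]
    exact cone_D1 (cone_E 0)
  · rw [Z0_succ]
    exact cone_D1 (inv m r h1 h2).1

theorem main {n : ℕ} (h : Fin n → Fin n) (hm : Monotone h) (hh : ∀ i, i ≤ h i)
    (h2 : ∀ i, (h i).val ≤ i.val + 2) :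
    ∃ c : n.Partition → Polynomial ℤ, (∀ μ k, 0 ≤ (c μ).coeff k) ∧
      ∀ N, chi h N =
        ∑ μ, MvPolynomial.C (c μ) * MvPolynomial.esymmPart (Fin N) (Polynomial ℤ) μ := by
  obtain ⟨c, hc, e⟩ := (cone_Z0 n (fun i => if hi : i < n then (h ⟨i, hi⟩).val - i else 0)
    (fun i => by
      split_ifs with hi
      · have := h2 ⟨i, hi⟩
        dsimp only at this; omega
      · omega)
    (fun i => by
      split_ifs with hi hi'
      · have := hm (show (⟨i, hi⟩ : Fin n) ≤ ⟨i + 1, hi'⟩ from Nat.le_succ i)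
        rw [Fin.le_def] at this; omega
      · have := (h ⟨i, hi⟩).2
        omega
      · omega
      · omega)).expand
  exact ⟨c, hc, fun N => (chi_eq h hh _ (fun i => by simp) N).trans (e N)⟩

end

end Vale.Agent.P066
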