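import Vale.Agent.P066.Fam
import Vale.Agent.P066.Defs

/-! From the cone to partitions, and from colourings to edge weights. -/

namespace Vale.Agent.P066

open Finset

lemma esymmPart_ofSums (N n : ℕ) (l : Multiset ℕ) (hl : l.sum = n) :
    MvPolynomial.esymmPart (Fin N) (Polynomial ℤ) (Nat.Partition.ofSums n l hl) =
      (l.map (MvPolynomial.esymm (Fin N) (Polynomial ℤ))).prod := by
  unfold MvPolynomial.esymmPart
  conv_rhs => rw [← Multiset.filter_add_not (· ≠ 0) l, Multiset.map_add, Multiset.prod_add]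
  rw [Multiset.prod_eq_one (s := Multiset.map _ (Multiset.filter (fun a => ¬ a ≠ 0) l)), mul_one]
  · rfl
  · intro y hy
    obtain ⟨a, ha, rfl⟩ := Multiset.mem_map.1 hy
    rw [not_not.1 (Multiset.mem_filter.1 ha).2]
    simp

lemma Cone.expand {n : ℕ} {F : M0} (h : Cone q0 e0 g0 n F) :
    ∃ c : n.Partition → Polynomial ℤ, (∀ μ k, 0 ≤ (c μ).coeff k) ∧
      ∀ N, F N = ∑ μ, MvPolynomial.C (c μ) * MvPolynomial.esymmPart (Fin N) (Polynomial ℤ) μ := by
  induction h with
  | gen h =>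
    obtain ⟨rfl, rfl⟩ := h
    refine ⟨fun _ => 1, fun _ k => ?_, fun N => ?_⟩
    · rw [Polynomial.coeff_one]; split_ifs <;> norm_num
    · simp [MvPolynomial.esymmPart]
  | zero n => exact ⟨fun _ => 0, by simp, by simp⟩
  | add _ _ h1 h2 =>
    obtain ⟨c, hc, e⟩ := h1
    obtain ⟨c', hc', e'⟩ := h2
    refine ⟨fun μ => c μ + c' μ, fun μ k => ?_, fun N => ?_⟩
    · rw [Polynomial.coeff_add]; exact add_nonneg (hc μ k) (hc' μ k)
    · simp only [Pi.add_apply, e, e', map_add, add_mul, sum_add_distrib]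
  | q _ h1 =>
    obtain ⟨c, hc, e⟩ := h1
    refine ⟨fun μ => Polynomial.X * c μ, fun μ k => ?_, fun N => ?_⟩
    · cases k with
      | zero => simp
      | succ k => rw [Polynomial.coeff_X_mul]; exact hc μ k
    · simp only [smul_eq_mul, Pi.mul_apply, e, q0, map_mul, mul_sum, mul_assoc]
  | @e k n F _ h1 =>
    classical
    obtain ⟨c, hc, e⟩ := h1
    let ins : n.Partition → (k + n).Partition := fun μ =>
      Nat.Partition.ofSums (k + n) (k ::ₘ μ.parts) (by rw [Multiset.sum_cons, μ.parts_sum])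
    refine ⟨fun ν => ∑ μ ∈ univ.filter (fun μ => ins μ = ν), c μ, fun ν j => ?_, fun N => ?_⟩
    · rw [Polynomial.finsetSum_coeff]; exact sum_nonneg fun μ _ => hc μ j
    · simp only [smul_eq_mul, Pi.mul_apply, e, map_sum, sum_mul, mul_sum]
      rw [← sum_fiberwise univ ins]
      refine sum_congr rfl fun ν _ => sum_congr rfl fun μ hμ => ?_
      rw [← (mem_filter.1 hμ).2, esymmPart_ofSums, Multiset.map_cons, Multiset.prod_cons]
      unfold MvPolynomial.esymmPart e0
      ring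

/-- the weight of a colouring, for the graph with edges `i < j ≤ i + r i` -/
noncomputable def wt {N : ℕ} (n : ℕ) (r : ℕ → ℕ) (f : Fin n → Fin N) : Rg N :=
  (∏ i, MvPolynomial.X (f i)) *
    ∏ i : Fin n, ∏ j : Fin n, if i < j ∧ j.val ≤ i.val + r i then w (q0 N) (f i) (f j) else 1

lemma wt_cons {N : ℕ} (n : ℕ) (r : ℕ → ℕ) (d : Fin N) (f : Fin n → Fin N) :
    wt (n + 1) r (Fin.cons d f) = MvPolynomial.X d *
      (∏ j : Fin n, if j.val + 1 ≤ r 0 then w (q0 N) d (f j) else 1) *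
      wt n (fun i => r (i + 1)) f := by
  unfold wt
  simp only [Fin.prod_univ_succ, Fin.cons_zero, Fin.cons_succ, lt_self_iff_false, false_and,
    if_false, Fin.succ_pos, true_and, Fin.val_succ, Fin.val_zero, zero_add, one_mul,
    Fin.not_lt_zero, Fin.succ_lt_succ_iff,
    show ∀ a b c : ℕ, a + 1 ≤ b + 1 + c ↔ a ≤ b + c from fun a b c => by omega]
  ring

lemma sum_cons {N : ℕ} (n : ℕ) (φ : (Fin (n + 1) → Fin N) → Rg N) :
    ∑ f, φ f = ∑ d, ∑ f : Fin n → Fin N, φ (Fin.cons d f) := by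
  rw [← (Fin.consEquiv fun _ => Fin N).sum_comp, Fintype.sum_prod_type]
  rfl

lemma chi_eq {n : ℕ} (h : Fin n → Fin n) (hh : ∀ i, i ≤ h i) (r : ℕ → ℕ)
    (hr : ∀ i : Fin n, r i = h i - i) (N : ℕ) : chi h N = ∑ f, wt n r f := by
  unfold chi colourings
  rw [sum_filter]
  refine sum_congr rfl fun f _ => ?_
  have he : ∀ i j : Fin n, j.val ≤ i.val + r i ↔ j ≤ h i := fun i j => by
    have := hh i
    rw [hr, Fin.le_def] at *
    omega
  unfold wt
  simp only [he]
  split_ifs with hf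
  · rw [mul_comm, asc, map_pow, ← prod_const, prod_filter, Fintype.prod_prod_type]
    congr 1
    refine prod_congr rfl fun i _ => prod_congr rfl fun j _ => ?_
    by_cases h1 : i < j ∧ j ≤ h i
    · simp [h1, w, hf i j h1.1 h1.2, q0]
    · rw [if_neg h1, if_neg (fun h2 => h1 ⟨h2.1, h2.2.1⟩)]
  · push Not at hf
    obtain ⟨a, b, h1, h2, h3⟩ := hf
    refine (mul_eq_zero_of_right _ (prod_eq_zero (mem_univ a) (prod_eq_zero (mem_univ b) ?_))).symm
    rw [if_pos ⟨h1, h2⟩, h3, w_self]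

end Vale.Agent.P066
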