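import Vale.Agent.P066.Cone

/-! Summation identities over subsets of a finite linear order. -/

namespace Vale.Agent.P066

open Finset

variable {C R : Type} [LinearOrder C] [CommRing R] (q : R)

/-- the number of elements of `S` above `a` -/
def rk (S : Finset C) (a : C) : ℕ := (S.filter fun s => a < s).card

/-- the weight of an edge -/
def w (a b : C) : R := if a = b then 0 else if a < b then q else 1

lemma sum_rk (S : Finset C) : ∑ b ∈ S, q ^ rk S b = qn q S.card := by
  induction S using Finset.induction_on_min with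
  | empty => simp
  | insert a s ha ih =>
    have hn : a ∉ s := fun h => lt_irrefl _ (ha a h)
    rw [sum_insert hn, card_insert_of_notMem hn, qn_succ, ← ih, add_comm]
    congr 1
    · refine sum_congr rfl fun b hb => ?_
      unfold rk
      rw [filter_insert, if_neg (not_lt.2 (ha b hb).le)]
    · unfold rk
      rw [filter_insert, if_neg (lt_irrefl a), filter_true_of_mem ha]

lemma sum_rk_gt (S : Finset C) (a : C) :
    (q - 1) * ∑ b ∈ S, (if a < b then q ^ rk S b else 0) = q ^ rk S a - 1 := by
  rw [← sum_filter, rk, ← qn_mul, ← sum_rk]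
  congr 1
  refine sum_congr rfl fun b hb => ?_
  unfold rk
  rw [filter_filter]
  congr 2
  exact filter_congr fun s _ => ⟨fun h => ⟨(mem_filter.1 hb).2.trans h, h⟩, fun h => h.2⟩

lemma sum_rk_eq (S : Finset C) (a : C) :
    ∑ b ∈ S, (if a = b then q ^ rk S b else 0) =
      q ^ rk S a - if a ∉ S then q ^ rk S a else 0 := by
  rw [sum_ite_eq]
  by_cases h : a ∈ S <;> simp [h]

lemma sum_w (S : Finset C) (d : C) :
    ∑ b ∈ S, w q d b * q ^ rk S b = qn q S.card - 1 + if d ∉ S then q ^ rk S d else 0 := by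
  have h : ∀ b ∈ S, w q d b * q ^ rk S b = q ^ rk S b +
      (q - 1) * (if d < b then q ^ rk S b else 0) - (if d = b then q ^ rk S b else 0) := by
    intro b _
    unfold w
    rcases lt_trichotomy d b with h | h | h
    · simp [h, h.ne]; ring
    · simp [h]
    · simp [h.ne', not_lt.2 h.le]
  rw [sum_congr rfl h, sum_sub_distrib, sum_add_distrib, ← mul_sum, sum_rk, sum_rk_gt, sum_rk_eq]
  ring

lemma sum_ww_lt (S : Finset C) {c d : C} (hcd : c < d) :
    ∑ b ∈ S, w q d b * w q c b * q ^ rk S b = qn q S.card - 1 - q +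
      (if c ∉ S then q ^ rk S c else 0) + q * if d ∉ S then q ^ rk S d else 0 := by
  have h : ∀ b ∈ S, w q d b * w q c b * q ^ rk S b = q ^ rk S b +
      (q - 1) * (if c < b then q ^ rk S b else 0) +
      q * ((q - 1) * (if d < b then q ^ rk S b else 0)) -
      (if c = b then q ^ rk S b else 0) - q * (if d = b then q ^ rk S b else 0) := by
    intro b _
    unfold w
    rcases lt_trichotomy d b with h | h | h
    · simp [h, h.ne, hcd.trans h, (hcd.trans h).ne]; ring
    · subst h
      simp [hcd, hcd.ne]; ring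
    · rcases lt_trichotomy c b with h' | h' | h'
      · simp [h.ne', not_lt.2 h.le, h', h'.ne]; ring
      · subst h'
        simp [h.ne', not_lt.2 h.le]
      · simp [h.ne', not_lt.2 h.le, h'.ne', not_lt.2 h'.le]
  rw [sum_congr rfl h, sum_sub_distrib, sum_sub_distrib, sum_add_distrib, sum_add_distrib,
    ← mul_sum, ← mul_sum, ← mul_sum, ← mul_sum, sum_rk, sum_rk_gt, sum_rk_gt, sum_rk_eq, sum_rk_eq]
  ring

lemma sum_ww (S : Finset C) {c d : C} (hcd : c ≠ d) :
    ∑ b ∈ S, w q d b * w q c b * q ^ rk S b = qn q S.card - 1 - q +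
      w q d c * (if c ∉ S then q ^ rk S c else 0) + w q c d * if d ∉ S then q ^ rk S d else 0 := by
  rcases lt_or_gt_of_ne hcd with h | h
  · rw [sum_ww_lt q S h]
    simp [w, h, h.ne, h.ne', not_lt.2 h.le]
  · rw [sum_congr rfl fun b _ => by rw [mul_comm (w q d b)], sum_ww_lt q S h]
    simp [w, h, h.ne, h.ne', not_lt.2 h.le]
    ring

lemma w_mul_w {c d : C} (hcd : c ≠ d) : w q d c * w q c d = q := by
  rcases lt_or_gt_of_ne hcd with h | h <;> simp [w, h, h.ne, h.ne', not_lt.2 h.le]

@[simp] lemma w_self (c : C) : w q c c = 0 := by simp [w]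

lemma rk_erase_self (S : Finset C) (b : C) : rk (S.erase b) b = rk S b := by
  unfold rk
  rw [filter_erase, erase_eq_of_notMem (by simp)]

lemma w_rk_erase {S : Finset C} {b c : C} (hb : b ∈ S) (hc : c ≠ b) :
    w q c b * q ^ rk (S.erase b) c = q ^ rk S c := by
  unfold rk w
  rw [filter_erase, if_neg hc]
  split_ifs with h
  · rw [← card_erase_add_one (s := S.filter fun s => c < s) (mem_filter.2 ⟨hb, h⟩), pow_succ']
  · rw [erase_eq_of_notMem (by simp [h]), one_mul]

variable [Fintype C] (x : C → R)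

/-- a weighted sum over the subsets of size `k` -/
def sg (k : ℕ) (φ : Finset C → R) : R := ∑ S ∈ powersetCard k univ, φ S * ∏ s ∈ S, x s

omit [LinearOrder C] in
lemma sg_congr {k : ℕ} {φ ψ : Finset C → R} (h : ∀ S, S.card = k → φ S = ψ S) :
    sg x k φ = sg x k ψ :=
  sum_congr rfl fun S hS => by rw [h S (mem_powersetCard.1 hS).2]

omit [LinearOrder C] in
lemma sg_add (k : ℕ) (φ ψ : Finset C → R) :
    sg x k (fun S => φ S + ψ S) = sg x k φ + sg x k ψ := by
  simp only [sg, add_mul, sum_add_distrib]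

omit [LinearOrder C] in
lemma sg_mul (k : ℕ) (a : R) (φ : Finset C → R) : sg x k (fun S => a * φ S) = a * sg x k φ := by
  simp only [sg, mul_sum, mul_assoc]

lemma sum_sg (k : ℕ) (u : C → R) (φ : C → Finset C → R) :
    ∑ b, u b * sg x k (fun S => if b ∈ S then φ b S else 0) =
      sg x k fun S => ∑ b ∈ S, u b * φ b S := by
  simp only [sg, mul_sum]
  rw [sum_comm]
  refine sum_congr rfl fun S _ => ?_
  rw [sum_mul, ← sum_subset (subset_univ S) (fun b _ hb => by simp [hb])]
  exact sum_congr rfl fun b hb => by rw [if_pos hb, mul_assoc]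

lemma sg_ins (k : ℕ) (b : C) (φ : Finset C → R) :
    x b * sg x k (fun S => if b ∉ S then φ S else 0) =
      sg x (k + 1) fun S => if b ∈ S then φ (S.erase b) else 0 := by
  simp only [sg, ite_mul, zero_mul]
  rw [← sum_filter, ← sum_filter, mul_sum]
  refine sum_bij' (fun S _ => insert b S) (fun S _ => S.erase b) ?_ ?_ ?_ ?_ ?_
  · intro S hS
    simp only [mem_filter, mem_powersetCard, subset_univ, true_and] at hS ⊢
    exact ⟨by rw [card_insert_of_notMem hS.2, hS.1], mem_insert_self _ _⟩
  · intro S hS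
    simp only [mem_filter, mem_powersetCard, subset_univ, true_and] at hS ⊢
    exact ⟨by rw [card_erase_of_mem hS.2, hS.1]; rfl, notMem_erase _ _⟩
  · intro S hS
    exact erase_insert (mem_filter.1 hS).2
  · intro S hS
    exact insert_erase (mem_filter.1 hS).2
  · intro S hS
    have h := (mem_filter.1 hS).2
    rw [erase_insert h, prod_insert h]
    ring

/-- elementary symmetric sums -/
def ee (k : ℕ) : R := sg x k fun _ => 1
/-- subsets through `a` -/
def EE (k : ℕ) (a : C) : R := sg x k fun S => if a ∈ S then q ^ rk S a else 0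
/-- subsets avoiding `a` -/
def RR (k : ℕ) (a : C) : R := sg x k fun S => if a ∉ S then q ^ rk S a else 0
/-- subsets through `b` avoiding `c` -/
def AA (k : ℕ) (b c : C) : R :=
  x c * sg x k fun S => if b ∈ S then q ^ rk S b * (if c ∉ S then q ^ rk S c else 0) else 0

lemma EE_succ (k : ℕ) (a : C) : EE q x (k + 1) a = x a * RR q x k a := by
  rw [RR, sg_ins, EE]
  exact sg_congr x fun S _ => by rw [rk_erase_self]

lemma EE_zero (a : C) : EE q x 0 a = 0 := by simp [EE, sg]

lemma EE_one (a : C) : EE q x 1 a = x a := by simp [EE_succ, RR, sg, rk]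

lemma sg_const (k : ℕ) (a : R) : sg x k (fun _ => a) = a * ee x k := by
  rw [ee, ← sg_mul]; simp

lemma sum_EE (k : ℕ) : ∑ b, EE q x k b = qn q k * ee x k := by
  have := sum_sg x k (fun _ => 1) fun b S => q ^ rk S b
  simp only [one_mul] at this
  rw [← sg_const]
  exact this.trans (sg_congr x fun S hS => by rw [sum_rk, hS])

lemma sum_w_EE (k : ℕ) (d : C) :
    ∑ b, w q d b * EE q x k b = (qn q k - 1) * ee x k + RR q x k d := by
  rw [← sg_const, RR, ← sg_add]
  exact (sum_sg x k _ _).trans (sg_congr x fun S hS => by rw [sum_w, hS])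

lemma sum_ww_EE (k : ℕ) {c d : C} (hcd : c ≠ d) :
    ∑ b, w q d b * w q c b * EE q x k b =
      (qn q k - 1 - q) * ee x k + w q d c * RR q x k c + w q c d * RR q x k d := by
  rw [← sg_const, RR, RR, ← sg_mul, ← sg_mul, ← sg_add, ← sg_add]
  exact (sum_sg x k _ _).trans (sg_congr x fun S hS => by rw [sum_ww q S hcd, hS])

lemma AA_succ (k : ℕ) (c d : C) : AA q x (k + 1) c d = x d * (w q d c * (x c *
    sg x k fun S => if c ∉ S then q ^ rk S c * (if d ∉ S then q ^ rk S d else 0) else 0)) := by
  rw [sg_ins, ← sg_mul, AA]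
  congr 1
  refine sg_congr x fun S _ => ?_
  by_cases hc : c ∈ S
  · rw [if_pos hc, if_pos hc, rk_erase_self]
    by_cases hd : d = c
    · subst hd; simp [hc]
    · by_cases hd' : d ∈ S
      · simp [hd, hd']
      · rw [if_pos hd', if_pos (fun h => hd' (mem_of_mem_erase h)), ← w_rk_erase q hc hd]
        ring
  · simp [hc]

lemma AA_one (c d : C) : AA q x 1 c d = w q d c * EE q x 1 c * x d := by
  rw [AA_succ, EE_one]
  simp [sg, rk]
  ring

lemma sum_AA (k : ℕ) (d : C) : ∑ c, AA q x k c d = qn q k * EE q x (k + 1) d := by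
  have := sum_sg x k (fun _ => 1) fun b S => q ^ rk S b * (if d ∉ S then q ^ rk S d else 0)
  simp only [one_mul] at this
  unfold AA
  rw [← mul_sum, this, EE_succ, RR, mul_left_comm, ← sg_mul x k (qn q k)]
  congr 1
  exact sg_congr x fun S hS => by rw [← sum_mul, sum_rk, hS]

lemma sum_w_AA (k : ℕ) (c d : C) : x d * w q d c * ∑ b, w q d b * AA q x k b c =
    (qn q k - 1) * (w q d c * EE q x (k + 1) c * x d) + AA q x (k + 1) c d := by
  have h := sum_sg x k (w q d) fun b S => q ^ rk S b * (if c ∉ S then q ^ rk S c else 0)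
  have h2 : (sg x k fun S => ∑ b ∈ S, w q d b * (q ^ rk S b * (if c ∉ S then q ^ rk S c else 0))) =
      (qn q k - 1) * RR q x k c + sg x k fun S =>
        if c ∉ S then q ^ rk S c * (if d ∉ S then q ^ rk S d else 0) else 0 := by
    rw [RR, ← sg_mul, ← sg_add]
    refine sg_congr x fun S hS => ?_
    simp only [← mul_assoc]
    rw [← sum_mul, sum_w, hS]
    by_cases hc : c ∈ S
    · simp [hc]
    · simp only [hc, not_false_eq_true, if_true]
      ring
  rw [AA_succ, EE_succ]
  unfold AA
  simp only [mul_left_comm _ (x c)]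
  rw [← mul_sum, h, h2]
  ring

end Vale.Agent.P066
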